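import Vale.Agent.P072.TwoDim
import Vale.Agent.P072.VarTwoDim
import Vale.Agent.P072.Unique

/-!
# P072: permanence for `dim S = 2`, stated with Mathlib notions only

One statement, in the wording of the problem file, for weakly reversible networks whose
stoichiometric subspace has dimension two (any number of species and of linkage classes):

* constant positive rates: every point of the positive stoichiometric class `P` starts a solution
  that exists and is positive for all `t ≥ 0`, every solution on any interval `[0, τ)` with that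
  initial value is a restriction of it, and one compact `K ⊆ P` contains every solution starting
  in `P` for all large times;
* measurable time-dependent rates with values in `[ε, ε⁻¹]` (Caratheodory solutions): the same,
  with a compact set that does not depend on the rate functions.
-/

namespace Vale.Agent.Results.P072.DimTwoExplicit

open Vale.Agent.P072

theorem result {d : ℕ} (R : Finset ((Fin d → ℕ) × (Fin d → ℕ))) (hne : ∀ r ∈ R, r.1 ≠ r.2)
    (hWR : ∀ r ∈ R, Relation.ReflTransGen (fun y y' => (y, y') ∈ R) r.2 r.1)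
    (S : Submodule ℝ (Fin d → ℝ))
    (hS : S = Submodule.span ℝ ((fun r : (Fin d → ℕ) × (Fin d → ℕ) =>
      fun i => (r.2 i : ℝ) - (r.1 i : ℝ)) '' (R : Set ((Fin d → ℕ) × (Fin d → ℕ)))))
    (h2 : Module.finrank ℝ S = 2)
    (f : ((Fin d → ℕ) × (Fin d → ℕ) → ℝ) → (Fin d → ℝ) → (Fin d → ℝ))
    (hf : ∀ k x, f k x =
      ∑ r ∈ R, (k r * ∏ i, x i ^ r.1 i) • fun i => (r.2 i : ℝ) - (r.1 i : ℝ))
    (c : Fin d → ℝ) (hc : ∀ i, 0 < c i)
    (P : Set (Fin d → ℝ)) (hP : P = {x | (∀ i, 0 < x i) ∧ x - c ∈ S}) :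
    (∀ k : (Fin d → ℕ) × (Fin d → ℕ) → ℝ, (∀ r ∈ R, 0 < k r) →
      (∀ x₀ ∈ P, ∃ x : ℝ → Fin d → ℝ, x 0 = x₀ ∧
        (∀ t, 0 ≤ t → (∀ i, 0 < x t i) ∧ HasDerivWithinAt x (f k (x t)) (Set.Ici 0) t) ∧
        ∀ (τ : ℝ) (z : ℝ → Fin d → ℝ), z 0 = x₀ →
          (∀ t ∈ Set.Ico (0 : ℝ) τ, HasDerivWithinAt z (f k (z t)) (Set.Ici 0) t) →
          ∀ t ∈ Set.Ico (0 : ℝ) τ, z t = x t) ∧
      ∃ K : Set (Fin d → ℝ), IsCompact K ∧ K ⊆ P ∧ ∀ x : ℝ → Fin d → ℝ, x 0 ∈ P →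
        (∀ t, 0 ≤ t → HasDerivWithinAt x (f k (x t)) (Set.Ici 0) t) →
        ∃ T, ∀ t, T ≤ t → x t ∈ K) ∧
    (∀ ε : ℝ, 0 < ε → ∃ K : Set (Fin d → ℝ), IsCompact K ∧ K ⊆ P ∧
      ∀ k : ℝ → (Fin d → ℕ) × (Fin d → ℕ) → ℝ, (∀ r, Measurable fun t => k t r) →
        (∀ t, ∀ r ∈ R, ε ≤ k t r ∧ k t r ≤ ε⁻¹) →
        (∀ x₀ ∈ P, ∃ x : ℝ → Fin d → ℝ, x 0 = x₀ ∧ ContinuousOn x (Set.Ici 0) ∧
          (∀ t, 0 ≤ t → ∀ i, 0 < x t i) ∧
          ∀ t, 0 ≤ t → x t = x 0 + ∫ s in (0 : ℝ)..t, f (k s) (x s)) ∧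
        ∀ x : ℝ → Fin d → ℝ, x 0 ∈ P → ContinuousOn x (Set.Ici 0) →
          (∀ t, 0 ≤ t → ∀ i, 0 < x t i) →
          (∀ t, 0 ≤ t → x t = x 0 + ∫ s in (0 : ℝ)..t, f (k s) (x s)) →
          ∃ T, ∀ t, T ≤ t → x t ∈ K) := by
  set N : Network d := ⟨R, hne⟩ with hN
  have hfield : ∀ k x, f k x = N.field k x := fun k x => hf k x
  have hfk : ∀ k, f k = N.field k := fun k => funext (hfield k)
  have hSN : S = N.stoich := hS
  subst hSN
  have hPN : P = N.posClass c := hP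
  subst hPN
  have hWR' : N.WeaklyReversible := hWR
  refine ⟨fun k hk => ?_, fun ε hε0 => ?_⟩
  · obtain ⟨hex, K, hKc, hKP, habs⟩ := permanent_of_finrank_two N hWR' h2 k hk c hc
    rw [hfk k]
    refine ⟨fun x₀ hx₀ => ?_, K, hKc, hKP, fun z hz0 hz => ?_⟩
    · obtain ⟨x, hx, hx0⟩ := hex x₀ hx₀
      refine ⟨x, hx0, hx, fun τ z hz0 hz => ?_⟩
      exact solution_unique N k (fun t ht => (hx t ht.1).2) hz (hz0.trans hx0.symm)
    · obtain ⟨x, hx, hx0⟩ := hex (z 0) hz0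
      obtain ⟨T, hT⟩ := habs x hx (hx0 ▸ hz0)
      refine ⟨max T 0, fun t ht => ?_⟩
      have h0t : 0 ≤ t := le_trans (le_max_right _ _) ht
      have := solution_unique N k (τ := t + 1) (x := x) (z := z)
        (fun s hs => (hx s hs.1).2) (fun s hs => hz s hs.1) hx0.symm t ⟨h0t, by linarith⟩
      rw [this]
      exact hT t (le_trans (le_max_left _ _) ht)
  · by_cases hε1 : ε ≤ 1
    · obtain ⟨K, hKc, hKP, hK⟩ := permanentVar_of_finrank_two N hWR' h2 hε0 hε1 c hc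
      refine ⟨K, hKc, hKP, fun k hkm hkb => ?_⟩
      obtain ⟨hex, habs⟩ := hK k ⟨hkm, hkb⟩
      simp only [hfk]
      refine ⟨fun x₀ hx₀ => ?_, fun x hx0 h1 h2' h3 => habs x ⟨h1, h2', h3⟩ hx0⟩
      obtain ⟨x, hx, hx0⟩ := hex x₀ hx₀
      exact ⟨x, hx0, hx.1, hx.2.1, hx.2.2⟩
    · refine ⟨∅, isCompact_empty, Set.empty_subset _, fun k _ hkb => ?_⟩
      exfalso
      have hRne : R.Nonempty := by
        by_contra hR
        rw [Finset.not_nonempty_iff_eq_empty] at hR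
        have : N.stoich = ⊥ := by
          simp [Network.stoich, hN, hR]
        rw [this] at h2
        simp at h2
      obtain ⟨r, hr⟩ := hRne
      obtain ⟨h1, h2'⟩ := hkb 0 r hr
      have hε1' : 1 < ε := not_le.1 hε1
      have : ε⁻¹ < 1 := inv_lt_one_of_one_lt₀ hε1'
      linarith

end Vale.Agent.Results.P072.DimTwoExplicit
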