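import Vale.Agent.P072.TwoDim

/-!
# P072: permanence for weakly reversible networks with two-dimensional stoichiometric subspace

Every weakly reversible mass-action system whose stoichiometric subspace has dimension two (any
number of species, any number of linkage classes, any positive rate constants) is permanent on
every positive stoichiometric class: positive solutions exist globally, and one compact subset of
the class absorbs all of them.  In particular all positive trajectories are bounded and persistent.
-/

namespace Vale.Agent.Results.P072.DimTwoPermanence

open Vale.Agent.P072

theorem result {d : ℕ} (N : Network d) (hWR : N.WeaklyReversible)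
    (h2 : Module.finrank ℝ N.stoich = 2)
    (k : (Fin d → ℕ) × (Fin d → ℕ) → ℝ) (hk : ∀ r ∈ N.reactions, 0 < k r)
    (c : Fin d → ℝ) (hc : ∀ i, 0 < c i) :
    N.PermanentOn k (N.posClass c) :=
  permanent_of_finrank_two N hWR h2 k hk c hc

end Vale.Agent.Results.P072.DimTwoPermanence
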