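import Vale.Agent.P072.VarTwoDim

/-!
# P072: permanence for `dim S = 2` in the stronger form with time-dependent rates

Every weakly reversible mass-action system whose stoichiometric subspace has dimension two (any
number of species and of linkage classes) is permanent on every positive stoichiometric class,
also for measurable time-dependent rates with values in `[ε, ε⁻¹]`; the absorbing compact set
depends only on the network, on `ε` and on the class, not on the rate functions.  Solutions are
Caratheodory solutions (integral form).
-/

namespace Vale.Agent.Results.P072.DimTwoPermanenceVar

open Vale.Agent.P072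

theorem result {d : ℕ} (N : Network d) (hWR : N.WeaklyReversible)
    (h2 : Module.finrank ℝ N.stoich = 2) {ε : ℝ} (hε0 : 0 < ε) (hε1 : ε ≤ 1)
    (c : Fin d → ℝ) (hc : ∀ i, 0 < c i) :
    N.PermanentOnVar ε (N.posClass c) :=
  permanentVar_of_finrank_two N hWR h2 hε0 hε1 c hc

end Vale.Agent.Results.P072.DimTwoPermanenceVar
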