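import Vale.Agent.P072.Main

/-!
# P072: permanence for weakly reversible networks of exchange type

Every weakly reversible mass-action system (any number of species and of linkage classes, any
positive rate constants) in which two complexes of the same linkage class always differ by an
integer multiple of `e_a` or of `e_a - e_b` is permanent on every positive stoichiometric class.
-/

namespace Vale.Agent.Results.P072.ExchangeTypePermanence

open Vale.Agent.P072

theorem result {d : ℕ} (N : Network d) (hWR : N.WeaklyReversible) (hET : N.ExchangeType)
    (k : (Fin d → ℕ) × (Fin d → ℕ) → ℝ) (hk : ∀ r ∈ N.reactions, 0 < k r)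
    (c : Fin d → ℝ) (hc : ∀ i, 0 < c i) :
    N.PermanentOn k (N.posClass c) :=
  permanent_of_exchangeType N hWR hET k hk c hc

end Vale.Agent.Results.P072.ExchangeTypePermanence
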